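import Mathlib.Algebra.Module.LinearMap.Defs
import Mathlib.Algebra.Module.Submodule.Defs
import Mathlib.LinearAlgebra.Finsupp.LSum
import Mathlib.Tactic

/-!
# P093, part N, block EN: multiplication by monomials

`M` is a monoid of monomials with a degree `dg : M → ℕ`, `N₀` a module, `M →₀ N₀` the
free `k[M]`-module on `N₀`, `sh a` the multiplication by the monomial `a`. For a linear map
`f₀ : H → (M →₀ N₀)` with constant term `g = (f₀ ·) 0 : H → N₀` let
`fM f₀ : (M →₀ H) → (M →₀ N₀)` be the map `y ↦ ∑ₐ a · f₀ (y a)`.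

* `fM_injective` : if `g` is injective, so is `fM f₀`;
* `fM_surj` : in the graded setting, if `g` is onto in degrees `< D`, so is `fM f₀`.
-/

namespace Vale.Agent.P093.EN

variable {k : Type*} [CommRing k] {M : Type*} [AddCommMonoid M] [IsCancelAdd M]
  {N₀ H : Type*} [AddCommGroup N₀] [Module k N₀] [AddCommGroup H] [Module k H]

/-- multiplication by the monomial `a` -/
noncomputable def sh (a : M) : (M →₀ N₀) →ₗ[k] (M →₀ N₀) := Finsupp.lmapDomain N₀ k (a + ·)

@[simp] theorem sh_single (a b : M) (x : N₀) :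
    sh (k := k) a (Finsupp.single b x) = Finsupp.single (a + b) x := by
  simp [sh]

theorem sh_apply_add (a b : M) (x : M →₀ N₀) : sh (k := k) a x (a + b) = x b := by
  unfold sh
  rw [Finsupp.lmapDomain_apply]
  exact Finsupp.mapDomain_apply (add_right_injective a) x b

theorem sh_apply_of_not (a c : M) (x : M →₀ N₀) (h : ∀ b, a + b ≠ c) :
    sh (k := k) a x c = 0 := by
  unfold sh
  rw [Finsupp.lmapDomain_apply]
  refine Finsupp.mapDomain_of_notMem_range x c ?_
  rintro ⟨b, hb⟩
  exact h b hb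

/-- The map `y ↦ ∑ₐ a · f₀ (y a)`. -/
noncomputable def fM (f₀ : H →ₗ[k] (M →₀ N₀)) : (M →₀ H) →ₗ[k] (M →₀ N₀) :=
  Finsupp.lsum k fun a => (sh a).comp f₀

theorem fM_apply (f₀ : H →ₗ[k] (M →₀ N₀)) (y : M →₀ H) :
    fM f₀ y = y.sum fun a h => sh (k := k) a (f₀ h) := rfl

@[simp] theorem fM_single (f₀ : H →ₗ[k] (M →₀ N₀)) (a : M) (h : H) :
    fM f₀ (Finsupp.single a h) = sh (k := k) a (f₀ h) := by
  rw [fM, Finsupp.lsum_single]
  rfl

/-- Injectivity. -/
theorem fM_injective (f₀ : H →ₗ[k] (M →₀ N₀)) (dg : M →+ ℕ) (hdg : ∀ a, dg a = 0 → a = 0)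
    (hg : ∀ y, f₀ y 0 = 0 → y = 0) : Function.Injective (fM f₀) := by
  classical
  rw [injective_iff_map_eq_zero]
  intro y hy
  by_contra hne
  obtain ⟨a, ha, hmin⟩ := Finset.exists_min_image y.support dg
    (Finsupp.support_nonempty_iff.2 hne)
  apply Finsupp.mem_support_iff.1 ha
  apply hg
  have h1 : fM f₀ y a = 0 := by rw [hy]; rfl
  rw [fM_apply, Finsupp.sum, Finsupp.finsetSum_apply, Finset.sum_eq_single a] at h1
  · have h2 := sh_apply_add (k := k) a 0 (f₀ (y a))
    rw [add_zero] at h2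
    rw [← h2, h1]
  · intro b hb hba
    apply sh_apply_of_not
    intro c hc
    have h3 : dg b + dg c = dg a := by rw [← map_add, hc]
    have h4 := hmin b hb
    have h5 : c = 0 := hdg c (by omega)
    rw [h5, add_zero] at hc
    exact hba hc
  · intro h
    exact absurd ha h

/-- Surjectivity in low degrees. -/
theorem fM_surj (f₀ : H →ₗ[k] (M →₀ N₀)) (dg : M → ℕ) (hadd : ∀ a b, dg (a + b) = dg a + dg b)
    (hdg : ∀ a, dg a = 0 → a = 0)
    (Gr : ℤ → Submodule k N₀) (Hr : ℤ → Submodule k H)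
    (hf₀ : ∀ m, ∀ y ∈ Hr m, ∀ b, f₀ y b ∈ Gr (m - dg b))
    (B D : ℤ) (hB : ∀ m < B, ∀ x ∈ Gr m, x = 0)
    (hg : ∀ m < D, ∀ x ∈ Gr m, ∃ y ∈ Hr m, f₀ y 0 = x) :
    ∀ m < D, ∀ x : M →₀ N₀, (∀ b, x b ∈ Gr (m - dg b)) →
      ∃ y : M →₀ H, (∀ a, y a ∈ Hr (m - dg a)) ∧ fM f₀ y = x := by
  classical
  -- monomials
  have key : ∀ n : ℕ, ∀ m < D, m < B + n → ∀ x ∈ Gr m, ∀ b : M,
      ∃ y : M →₀ H, (∀ a, y a ∈ Hr (m + dg b - dg a)) ∧ fM f₀ y = Finsupp.single b x := by
    intro n
    induction n with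
    | zero =>
      intro m _ hm x hx b
      rw [hB m (by simpa using hm) x hx]
      exact ⟨0, fun a => by simp, by simp⟩
    | succ n ih =>
      intro m hmD hm x hx b
      obtain ⟨y₀, hy₀, hy₀x⟩ := hg m hmD x hx
      -- the remainder
      let r : M →₀ N₀ := f₀ y₀ - Finsupp.single 0 x
      have hr0 : r 0 = 0 := by simp [r, hy₀x]
      have hr : ∀ c, r c ∈ Gr (m - dg c) := by
        intro c
        by_cases hc : c = 0
        · rw [hc, hr0]
          exact Submodule.zero_mem _
        · have : r c = f₀ y₀ c := by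
            simp [r, Ne.symm hc]
          rw [this]
          exact hf₀ m y₀ hy₀ c
      have h1 : ∀ c : M, ∃ y : M →₀ H, (∀ a, y a ∈ Hr (m + dg b - dg a)) ∧
          fM f₀ y = Finsupp.single (b + c) (r c) := by
        intro c
        by_cases hc : c = 0
        · rw [hc, hr0]
          exact ⟨0, fun a => by simp, by simp⟩
        · have hpos : 0 < dg c := Nat.pos_of_ne_zero fun h => hc (hdg c h)
          obtain ⟨y, hy1, hy2⟩ := ih (m - dg c) (by omega) (by push_cast at hm; omega) (r c)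
            (hr c) (b + c)
          refine ⟨y, fun a => ?_, hy2⟩
          have := hy1 a
          rwa [hadd, show m - (dg c : ℤ) + ((dg b + dg c : ℕ) : ℤ) - dg a =
            m + dg b - dg a by push_cast; ring] at this
      choose Y hY1 hY2 using h1
      refine ⟨Finsupp.single b y₀ - ∑ c ∈ r.support, Y c, fun a => ?_, ?_⟩
      · rw [Finsupp.sub_apply, Finsupp.finsetSum_apply]
        refine Submodule.sub_mem _ ?_ (Submodule.sum_mem _ fun c _ => hY1 c a)
        rw [Finsupp.single_apply]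
        split_ifs with hab
        · rw [← hab, add_sub_cancel_right]
          exact hy₀
        · exact Submodule.zero_mem _
      · rw [map_sub, fM_single, map_sum, Finset.sum_congr rfl fun c _ => hY2 c]
        have h2 : sh (k := k) b r = ∑ c ∈ r.support, Finsupp.single (b + c) (r c) := by
          conv_lhs => rw [← Finsupp.sum_single r, Finsupp.sum, map_sum]
          exact Finset.sum_congr rfl fun c _ => sh_single _ _ _
        have h3 : f₀ y₀ = r + Finsupp.single 0 x := by simp [r]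
        rw [h3, map_add, h2, sh_single, add_zero, add_sub_cancel_left]
  intro m hm x hx
  have h1 : ∀ b : M, ∃ y : M →₀ H, (∀ a, y a ∈ Hr (m - dg a)) ∧
      fM f₀ y = Finsupp.single b (x b) := by
    intro b
    obtain ⟨n, hn⟩ : ∃ n : ℕ, m - dg b < B + n := by
      refine ⟨(m - dg b - B + 1).toNat, ?_⟩
      have := Int.self_le_toNat (m - dg b - B + 1)
      omega
    obtain ⟨y, hy1, hy2⟩ := key n (m - dg b) (by omega) hn (x b) (hx b) b
    refine ⟨y, fun a => ?_, hy2⟩
    have := hy1 a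
    rwa [sub_add_cancel] at this
  choose Y hY1 hY2 using h1
  refine ⟨∑ b ∈ x.support, Y b, fun a => ?_, ?_⟩
  · rw [Finsupp.finsetSum_apply]
    exact Submodule.sum_mem _ fun b _ => hY1 b a
  · rw [map_sum, Finset.sum_congr rfl fun b _ => hY2 b]
    exact Finsupp.sum_single x

end Vale.Agent.P093.EN
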