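import Mathlib.Algebra.DirectSum.Module
import Mathlib.Algebra.DirectSum.Decomposition
import Mathlib.LinearAlgebra.Basis.VectorSpace
import Mathlib.LinearAlgebra.FreeModule.Finite.Basic
import Mathlib.LinearAlgebra.Dimension.Free
import Mathlib.Tactic

/-!
# P093, block EN-ALG: homogeneous bases of graded subspaces

`exists_graded_proj` : a subspace `V` of a graded vector space `H` (finite dimensional in each
degree) has, inside its homogeneous elements, a homogeneous basis `e v` indexed by a type `J` in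
`Type`, and there is a graded linear map `π : H → (J →₀ k)` with `π (e v) = single v 1`.
-/

open DirectSum

namespace Vale.Agent.P093.EN

variable {k : Type*} [Field k] {H : Type*} [AddCommGroup H] [Module k H]

/-- **Homogeneous basis of the homogeneous elements of a subspace, and a graded projection.** -/
theorem exists_graded_proj (𝓗 : ℤ → Submodule k H) (hint : DirectSum.IsInternal 𝓗)
    (hfin : ∀ w, Module.Finite k (𝓗 w)) (B : ℤ) (hB : ∀ w < B, 𝓗 w = ⊥) (V : Submodule k H) :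
    ∃ (J : Type) (d : J → ℤ) (e : J → H) (π : H →ₗ[k] J →₀ k),
      (∀ v, B ≤ d v) ∧ (∀ w, {v | d v = w}.Finite) ∧ (∀ v, e v ∈ V ∧ e v ∈ 𝓗 (d v)) ∧
      (∀ v, π (e v) = Finsupp.single v 1) ∧
      (∀ w, ∀ x ∈ 𝓗 w, ∀ v, π x v ≠ 0 → d v = w) ∧
      (∀ w, ∀ x ∈ V ⊓ 𝓗 w, (π x).sum (fun v c => c • e v) = x) := by
  classical
  have hfin' : ∀ w, Module.Finite k (V ⊓ 𝓗 w : Submodule k H) := fun w => by
    have := hfin w
    exact Submodule.finiteDimensional_inf_right V (𝓗 w)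
  -- the basis of each graded piece
  let r : ℤ → ℕ := fun w => Module.finrank k (V ⊓ 𝓗 w : Submodule k H)
  let b : ∀ w, Module.Basis (Fin (r w)) k (V ⊓ 𝓗 w : Submodule k H) := fun w =>
    Module.finBasis k _
  -- the projection of each graded piece
  have hproj : ∀ w, ∃ q : 𝓗 w →ₗ[k] (V ⊓ 𝓗 w : Submodule k H),
      ∀ x : (V ⊓ 𝓗 w : Submodule k H), q ⟨x.1, x.2.2⟩ = x := by
    intro w
    let i : (V ⊓ 𝓗 w : Submodule k H) →ₗ[k] 𝓗 w := Submodule.inclusion inf_le_right
    have hi : LinearMap.ker i = ⊥ := Submodule.ker_inclusion _ _ _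
    obtain ⟨q, hq⟩ := i.exists_leftInverse_of_injective hi
    exact ⟨q, fun x => LinearMap.congr_fun hq x⟩
  choose q hq using hproj
  let J : Type := Σ w : ℤ, Fin (r w)
  let g : ∀ w, 𝓗 w →ₗ[k] (J →₀ k) := fun w =>
    (Finsupp.lmapDomain k k (fun i : Fin (r w) => (⟨w, i⟩ : J))) ∘ₗ (b w).repr.toLinearMap ∘ₗ q w
  let D : (⨁ w, 𝓗 w) ≃ₗ[k] H := LinearEquiv.ofBijective (DirectSum.coeLinearMap 𝓗) hint
  let π : H →ₗ[k] (J →₀ k) := (DirectSum.toModule k ℤ (J →₀ k) g) ∘ₗ D.symm.toLinearMap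
  have hD : ∀ w (x : 𝓗 w), D.symm (x : H) = DirectSum.lof k ℤ (fun w => 𝓗 w) w x := by
    intro w x
    rw [LinearEquiv.symm_apply_eq]
    change (x : H) = DirectSum.coeLinearMap 𝓗 _
    rw [DirectSum.lof_eq_of, DirectSum.coeLinearMap_of]
  have hπ : ∀ w (x : 𝓗 w), π (x : H) = g w x := by
    intro w x
    change DirectSum.toModule k ℤ (J →₀ k) g (D.symm (x : H)) = _
    rw [hD, DirectSum.toModule_lof]
  refine ⟨J, fun v => v.1, fun v => ((b v.1) v.2 : H), π, ?_, ?_, ?_, ?_, ?_, ?_⟩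
  · rintro ⟨w, i⟩
    by_contra hw
    have h0 : (V ⊓ 𝓗 w : Submodule k H) = ⊥ := by rw [hB w (not_le.1 hw), inf_bot_eq]
    have h1 : r w = 0 := by
      change Module.finrank k (V ⊓ 𝓗 w : Submodule k H) = 0
      rw [h0, finrank_bot]
    exact absurd (lt_of_lt_of_eq i.2 h1) (Nat.not_lt_zero _)
  · intro w
    have : {v : J | v.1 = w} = Set.range (fun i : Fin (r w) => (⟨w, i⟩ : J)) := by
      ext v
      constructor
      · rintro rfl
        exact ⟨v.2, rfl⟩
      · rintro ⟨i, rfl⟩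
        rfl
    rw [this]
    exact Set.finite_range _
  · intro v
    exact ⟨((b v.1) v.2).2.1, ((b v.1) v.2).2.2⟩
  · rintro ⟨w, i⟩
    change π ((b w i : (V ⊓ 𝓗 w : Submodule k H)) : H) = _
    have h1 := hπ w ⟨(b w i : H), (b w i).2.2⟩
    rw [h1]
    change Finsupp.lmapDomain k k _ ((b w).repr (q w ⟨(b w i : H), (b w i).2.2⟩)) = _
    rw [hq w (b w i), Module.Basis.repr_self, Finsupp.lmapDomain_apply, Finsupp.mapDomain_single]
  · intro w x hx v hv
    rw [hπ w ⟨x, hx⟩] at hv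
    by_contra hne
    apply hv
    change Finsupp.mapDomain _ ((b w).repr (q w ⟨x, hx⟩)) v = 0
    refine Finsupp.mapDomain_of_notMem_range _ _ ?_
    rintro ⟨i, rfl⟩
    exact hne rfl
  · intro w x hx
    rw [hπ w ⟨x, hx.2⟩]
    change (Finsupp.mapDomain _ ((b w).repr (q w ⟨x, hx.2⟩))).sum _ = x
    rw [hq w ⟨x, hx⟩, Finsupp.sum_mapDomain_index (by simp) (by intros; rw [add_smul])]
    have h1 := (b w).sum_repr ⟨x, hx⟩
    have h2 := congrArg (fun y : (V ⊓ 𝓗 w : Submodule k H) => (y : H)) h1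
    simp only [Submodule.coe_sum, Submodule.coe_smul] at h2
    rw [Finsupp.sum_fintype _ _ (by simp)]
    exact h2

end Vale.Agent.P093.EN
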