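import Vale.Agent.P093.N.Co.Int

/-!
# P093, block EN-ALG: the map `Φ` of comodules

* `smulFs b` : multiplication by an element `b` of a comodule algebra `B` on `J →₀ B`, colinear if
  `b` is primitive;
* `Phi hm f₀ : (𝒜 →₀ H) → (J →₀ B)`, `single a y ↦ hm a • f₀ y`, colinear if `f₀` is;
* `inj_coker_Phi` : its cokernel is injective.
-/

open TensorProduct Coalgebra

set_option linter.unusedSectionVars false

namespace Vale.Agent.P093.EN

open Vale.Agent.P093.N Vale.Agent.P093.N.Co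

section Mul

variable {k A B H : Type*} [Field k] [CommRing A] [Bialgebra k A] [CommRing B] [Algebra k B]
  [AddCommGroup H] [Module k H] {J 𝒜 : Type*}

/-- multiplication by `b` on `J →₀ B` -/
noncomputable def smulFs (k : Type*) [Field k] {B : Type*} [CommRing B] [Algebra k B]
    (J : Type*) (b : B) : (J →₀ B) →ₗ[k] (J →₀ B) :=
  Finsupp.mapRange.linearMap (LinearMap.mulLeft k b)

@[simp] theorem smulFs_apply (b : B) (f : J →₀ B) (v : J) : smulFs k J b f v = b * f v := by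
  simp [smulFs]

@[simp] theorem smulFs_single (b c : B) (v : J) :
    smulFs k J b (Finsupp.single v c) = Finsupp.single v (b * c) := by
  simp [smulFs]

theorem colin_mulLeft {ψ : B →ₐ[k] A ⊗[k] B} {b : B} (hb : ψ b = 1 ⊗ₜ b) :
    Colin ψ.toLinearMap ψ.toLinearMap (LinearMap.mulLeft k b) := by
  ext c
  simp only [LinearMap.comp_apply, LinearMap.mulLeft_apply, AlgHom.toLinearMap_apply, map_mul,
    hb]
  generalize ψ c = z
  induction z with
  | zero => simp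
  | add z w hz hw => rw [mul_add, map_add, hz, hw]
  | tmul x y => simp

theorem colin_smulFs {ψ : B →ₐ[k] A ⊗[k] B} {b : B} (hb : ψ b = 1 ⊗ₜ b) :
    Colin (fco J ψ.toLinearMap) (fco J ψ.toLinearMap) (smulFs k J b) := by
  refine colin_lsum fun v => ?_
  have h : smulFs k J b ∘ₗ Finsupp.lsingle v = Finsupp.lsingle v ∘ₗ LinearMap.mulLeft k b := by
    ext c
    simp
  rw [h]
  exact (colin_lsingle _ v).comp (colin_mulLeft hb)

/-- The map `Φ : (𝒜 →₀ H) → (J →₀ B)`, `single a y ↦ hm a • f₀ y`. -/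
noncomputable def Phi (hm : 𝒜 → B) (f₀ : H →ₗ[k] (J →₀ B)) : (𝒜 →₀ H) →ₗ[k] (J →₀ B) :=
  Finsupp.lsum k fun a => smulFs k J (hm a) ∘ₗ f₀

@[simp] theorem Phi_single (hm : 𝒜 → B) (f₀ : H →ₗ[k] (J →₀ B)) (a : 𝒜) (y : H) :
    Phi hm f₀ (Finsupp.single a y) = smulFs k J (hm a) (f₀ y) := by
  simp [Phi]

theorem colin_Phi {ψ : B →ₐ[k] A ⊗[k] B} {ρ : H →ₗ[k] A ⊗[k] H} {hm : 𝒜 → B}
    (hh : ∀ a, ψ (hm a) = 1 ⊗ₜ hm a) {f₀ : H →ₗ[k] (J →₀ B)}
    (hf : Colin ρ (fco J ψ.toLinearMap) f₀) :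
    Colin (fco 𝒜 ρ) (fco J ψ.toLinearMap) (Phi hm f₀) := by
  refine colin_lsum fun a => ?_
  have h : Phi hm f₀ ∘ₗ Finsupp.lsingle a = smulFs k J (hm a) ∘ₗ f₀ := by
    ext1 y
    simp
  rw [h]
  exact (colin_smulFs (hh a)).comp hf

end Mul

section Coker

variable {k A B H Q : Type*} [Field k] [CommRing A] [Bialgebra k A] [CommRing B] [Algebra k B]
  [AddCommGroup H] [Module k H] [AddCommGroup Q] [Module k Q] {J 𝒜 : Type*}

/-- **The cokernel of `Φ` is injective.** -/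
theorem inj_coker_Phi {ψ : B →ₐ[k] A ⊗[k] B} (hψ : IsCoact ψ.toLinearMap)
    (hB : Inj ψ.toLinearMap) {ρ : H →ₗ[k] A ⊗[k] H} (hH : Inj ρ) {hm : 𝒜 → B}
    (hh : ∀ a, ψ (hm a) = 1 ⊗ₜ hm a) {f₀ : H →ₗ[k] (J →₀ B)}
    (hf : Colin ρ (fco J ψ.toLinearMap) f₀) (hinj : Function.Injective (Phi hm f₀))
    {τ : Q →ₗ[k] A ⊗[k] Q} {g : (J →₀ B) →ₗ[k] Q} (hg : Colin (fco J ψ.toLinearMap) τ g)
    (hs : Function.Surjective g) (hker : LinearMap.ker g = LinearMap.range (Phi hm f₀)) :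
    Inj τ :=
  Inj.coker (Inj.fco hH (J := 𝒜)) (Inj.fco hB (J := J)) (IsCoact.fco hψ) (colin_Phi hh hf) hg
    hinj (LinearMap.exact_iff.2 hker) hs

end Coker

end Vale.Agent.P093.EN
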