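import Vale.Agent.P093.EN.PhiBasis
import Vale.Agent.P093.N.Co.Conil

/-!
# P093, block EN-ALG: gradings of tensor products, without decomposition of the tensor product

For a grading `𝓜` of `M` a *degree map* is `D : M → (ℤ →₀ M)`, `D x = single w x` for `x ∈ 𝓜 w`.

* `exists_isDeg` : an internal grading has a degree map;
* `TGr 𝓐 𝓜 w` : the elements of degree `w` of `A ⊗ M`, `exists_isDeg_TGr` : they have a degree map;
* `comp_mem_prim` : the homogeneous components of a primitive element are primitive;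
* `exists_homog` : an element whose image under an injective graded map is homogeneous, is
  homogeneous.
-/

open DirectSum TensorProduct

namespace Vale.Agent.P093.EN

open Vale.Agent.P093.N.Co

section Deg

variable {k M N A : Type*} [Field k] [AddCommGroup M] [Module k M]
  [AddCommGroup N] [Module k N]

/-- `D` reads off the degrees -/
def IsDeg (𝓜 : ℤ → Submodule k M) (D : M →ₗ[k] (ℤ →₀ M)) : Prop :=
  ∀ w, ∀ x ∈ 𝓜 w, D x = Finsupp.single w x

/-- `D` is the decomposition in homogeneous components -/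
structure IsDec (𝓜 : ℤ → Submodule k M) (D : M →ₗ[k] (ℤ →₀ M)) : Prop where
  deg : IsDeg 𝓜 D
  mem : ∀ x w, D x w ∈ 𝓜 w
  sum : ∀ x, (D x).sum (fun _ y => y) = x

theorem exists_isDec {𝓜 : ℤ → Submodule k M} (h : DirectSum.IsInternal 𝓜) :
    ∃ D, IsDec 𝓜 D := by
  classical
  let e : (⨁ w, 𝓜 w) ≃ₗ[k] M := LinearEquiv.ofBijective (DirectSum.coeLinearMap 𝓜) h
  let g : (⨁ w, 𝓜 w) →ₗ[k] (ℤ →₀ M) := DirectSum.toModule k ℤ (ℤ →₀ M) fun w =>
    Finsupp.lsingle w ∘ₗ (𝓜 w).subtype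
  have he : ∀ w (x : 𝓜 w), e.symm (x : M) = DirectSum.lof k ℤ (fun w => 𝓜 w) w x := by
    intro w x
    rw [LinearEquiv.symm_apply_eq]
    change (x : M) = DirectSum.coeLinearMap 𝓜 _
    rw [DirectSum.lof_eq_of, DirectSum.coeLinearMap_of]
  have hg : ∀ w (x : 𝓜 w), g (DirectSum.lof k ℤ (fun w => 𝓜 w) w x) = Finsupp.single w (x : M) := by
    intro w x
    change DirectSum.toModule k ℤ (ℤ →₀ M) _ _ = _
    rw [DirectSum.toModule_lof]
    rfl
  refine ⟨g ∘ₗ e.symm.toLinearMap, ?_, ?_, ?_⟩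
  · intro w x hx
    have h1 := he w ⟨x, hx⟩
    rw [LinearMap.comp_apply]
    change g (e.symm x) = _
    rw [h1, hg]
  · intro x w
    rw [LinearMap.comp_apply]
    change g (e.symm x) w ∈ 𝓜 w
    generalize e.symm x = y
    induction y using DirectSum.induction_on with
    | zero => rw [map_zero]; exact Submodule.zero_mem _
    | of i x =>
      rw [← DirectSum.lof_eq_of k, hg, Finsupp.single_apply]
      split_ifs with hi
      · rw [← hi]; exact x.2
      · exact Submodule.zero_mem _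
    | add x y hx hy => rw [map_add, Finsupp.add_apply]; exact Submodule.add_mem _ hx hy
  · intro x
    rw [LinearMap.comp_apply]
    change (g (e.symm x)).sum _ = _
    obtain ⟨y, rfl⟩ := e.surjective x
    rw [LinearEquiv.symm_apply_apply]
    induction y using DirectSum.induction_on with
    | zero => simp
    | of i x =>
      rw [← DirectSum.lof_eq_of k, hg, Finsupp.sum_single_index rfl, ← he]
      exact (LinearEquiv.apply_symm_apply e _).symm
    | add x y hx hy => rw [map_add, Finsupp.sum_add_index' (fun _ => rfl) (fun _ _ _ => rfl), hx,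
        hy, map_add]

/-- graded maps commute with the degree maps -/
theorem deg_comm {𝓜 : ℤ → Submodule k M} {𝓝 : ℤ → Submodule k N} {D : M →ₗ[k] (ℤ →₀ M)}
    {E : N →ₗ[k] (ℤ →₀ N)} (hD : IsDec 𝓜 D) (hE : IsDeg 𝓝 E) {f : M →ₗ[k] N}
    (hf : ∀ w, ∀ x ∈ 𝓜 w, f x ∈ 𝓝 w) (x : M) (w : ℤ) : E (f x) w = f (D x w) := by
  classical
  have h1 : f x = (D x).sum fun _ y => f y := by
    conv_lhs => rw [← hD.sum x]
    rw [Finsupp.sum, Finsupp.sum, map_sum]
  rw [h1, Finsupp.sum, map_sum, Finsupp.finsetSum_apply]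
  have h2 : ∀ v, E (f (D x v)) = Finsupp.single v (f (D x v)) := fun v =>
    hE v _ (hf v _ (hD.mem x v))
  simp only [h2, Finsupp.single_apply]
  rw [Finset.sum_ite_eq']
  split_ifs with hw
  · rfl
  · rw [Finsupp.notMem_support_iff.1 hw, map_zero]

end Deg

section Ten

variable {k M N A : Type*} [Field k] [AddCommGroup M] [Module k M]
  [AddCommGroup N] [Module k N] [AddCommGroup A] [Module k A]

/-- The elements of degree `w` of `A ⊗ M`, for an `ℕ`-grading of `A` and a `ℤ`-grading of `M`. -/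
def TGr (𝓐 : ℕ → Submodule k A) (𝓜 : ℤ → Submodule k M) (w : ℤ) : Submodule k (A ⊗[k] M) :=
  Submodule.span k {z | ∃ (i : ℕ) (a : A) (x : M), a ∈ 𝓐 i ∧ x ∈ 𝓜 (w - i) ∧ z = a ⊗ₜ x}

theorem tmul_mem_TGr {𝓐 : ℕ → Submodule k A} {𝓜 : ℤ → Submodule k M} {w : ℤ} {i : ℕ} {a : A}
    {x : M} (ha : a ∈ 𝓐 i) (hx : x ∈ 𝓜 (w - i)) : a ⊗ₜ[k] x ∈ TGr 𝓐 𝓜 w :=
  Submodule.subset_span ⟨i, a, x, ha, hx, rfl⟩

theorem range_map_le_TGr {𝓐 : ℕ → Submodule k A} {𝓜 : ℤ → Submodule k M} {w : ℤ} (i : ℕ) :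
    LinearMap.range (TensorProduct.map (𝓐 i).subtype (𝓜 (w - i)).subtype) ≤ TGr 𝓐 𝓜 w := by
  rintro _ ⟨z, rfl⟩
  induction z with
  | zero => simp
  | add z z' hz hz' => rw [map_add]; exact Submodule.add_mem _ hz hz'
  | tmul a x => exact tmul_mem_TGr a.2 x.2

theorem lTensor_mem_TGr {𝓐 : ℕ → Submodule k A} {𝓜 : ℤ → Submodule k M}
    {𝓝 : ℤ → Submodule k N} {f : M →ₗ[k] N} (hf : ∀ w, ∀ x ∈ 𝓜 w, f x ∈ 𝓝 w) {w : ℤ}
    {z : A ⊗[k] M} (hz : z ∈ TGr 𝓐 𝓜 w) : f.lTensor A z ∈ TGr 𝓐 𝓝 w := by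
  induction hz using Submodule.span_induction with
  | mem z hz =>
    obtain ⟨i, a, x, ha, hx, rfl⟩ := hz
    exact tmul_mem_TGr ha (hf _ _ hx)
  | zero => rw [map_zero]; exact Submodule.zero_mem _
  | add z z' _ _ hz hz' => rw [map_add]; exact Submodule.add_mem _ hz hz'
  | smul c z _ hz => rw [map_smul]; exact Submodule.smul_mem _ _ hz

/-- The elements of degree `w` of `A ⊗ M` have a degree map. -/
theorem exists_isDeg_TGr {𝓐 : ℕ → Submodule k A} {𝓜 : ℤ → Submodule k M}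
    {DA : A →ₗ[k] (ℕ →₀ A)} (hA : ∀ i, ∀ a ∈ 𝓐 i, DA a = Finsupp.single i a)
    {D : M →ₗ[k] (ℤ →₀ M)} (hD : IsDeg 𝓜 D) : ∃ E, IsDeg (TGr 𝓐 𝓜) E := by
  classical
  refine ⟨Finsupp.lmapDomain (A ⊗[k] M) k (fun x : ℕ × ℤ => (x.1 : ℤ) + x.2) ∘ₗ
    (finsuppTensorFinsupp k k A M ℕ ℤ).toLinearMap ∘ₗ TensorProduct.map DA D, ?_⟩
  intro w z hz
  induction hz using Submodule.span_induction with
  | mem z hz =>
    obtain ⟨i, a, x, ha, hx, rfl⟩ := hz
    simp only [LinearMap.comp_apply, TensorProduct.map_tmul, hA i a ha, hD _ x hx,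
      LinearEquiv.coe_coe, finsuppTensorFinsupp_single, Finsupp.lmapDomain_apply,
      Finsupp.mapDomain_single]
    congr 1
    ring
  | zero => simp
  | add z z' _ _ hz hz' => rw [map_add, hz, hz', Finsupp.single_add]
  | smul c z _ hz => rw [map_smul, hz, Finsupp.smul_single]

/-- An element whose image under an injective graded map is homogeneous, is homogeneous. -/
theorem mem_of_apply_mem {𝓜 : ℤ → Submodule k M} {𝓝 : ℤ → Submodule k N} {D : M →ₗ[k] (ℤ →₀ M)}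
    {E : N →ₗ[k] (ℤ →₀ N)} (hD : IsDec 𝓜 D) (hE : IsDeg 𝓝 E) {f : M →ₗ[k] N}
    (hf : ∀ w, ∀ x ∈ 𝓜 w, f x ∈ 𝓝 w) (hi : Function.Injective f) {x : M} {w : ℤ}
    (hx : f x ∈ 𝓝 w) : x ∈ 𝓜 w := by
  have h1 := deg_comm hD hE hf x w
  rw [hE w _ hx, Finsupp.single_eq_same] at h1
  rw [hi h1]
  exact hD.mem x w

end Ten

section Prim

variable {k M A : Type*} [Field k] [AddCommGroup M] [Module k M] [CommRing A] [Bialgebra k A]

/-- The homogeneous components of a primitive element are primitive. -/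
theorem comp_mem_prim {𝓐 : ℕ → Submodule k A} {𝓜 : ℤ → Submodule k M}
    {DA : A →ₗ[k] (ℕ →₀ A)} (hA : ∀ i, ∀ a ∈ 𝓐 i, DA a = Finsupp.single i a)
    (h1 : (1 : A) ∈ 𝓐 0) {D : M →ₗ[k] (ℤ →₀ M)} (hD : IsDec 𝓜 D) {ρ : M →ₗ[k] A ⊗[k] M}
    (hρ : ∀ w, ∀ x ∈ 𝓜 w, ρ x ∈ TGr 𝓐 𝓜 w) {x : M} (hx : x ∈ prim ρ) (w : ℤ) :
    D x w ∈ prim ρ := by
  obtain ⟨E, hE⟩ := exists_isDeg_TGr hA hD.deg
  have h2 := deg_comm hD hE hρ x w
  have h3 : ∀ w, ∀ x ∈ 𝓜 w, TensorProduct.mk k A M 1 x ∈ TGr 𝓐 𝓜 w := fun w x hx =>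
    tmul_mem_TGr h1 (by simpa using hx)
  have h4 := deg_comm hD hE h3 x w
  have h5 : ρ x = TensorProduct.mk k A M 1 x := hx
  rw [h5] at h2
  exact (h2.symm.trans h4 : ρ (D x w) = _)

end Prim

end Vale.Agent.P093.EN
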